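import Vale.Agent.P150.Link

namespace Vale.Agent.Results.P150.Half

open Vale.Agent.P150 Filter Topology Finset

theorem gap_iff {n : ℕ} (β : ℝ) (g : Pair n → ℝ) (c : ℝ) : GapGe β g c ↔ Poi (wt β g) c := by
  have hw : ∀ x, 0 < wt β g x := fun x => Real.exp_pos _
  have hZ := sum_pos' hw
  refine forall_congr' fun f => ?_
  simp only [gibbs, div_mul_eq_mul_div, ← sum_div, gen_eq, ← neg_div, dir_eq hw, ← mul_div_assoc,
    div_le_div_iff_of_pos_right hZ, div_eq_zero_iff, hZ.ne', or_false]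

theorem gap_le {n : ℕ} (hn : 0 < n) (β : ℝ) (g : Pair n → ℝ) (c : ℝ) (h : GapGe β g c) : c ≤ 1 := by
  have hw : ∀ x, 0 < wt β g x := fun x => Real.exp_pos _
  have hi : Function.Involutive fun (x : Cfg n) i => !x i := fun x => by simp
  have e : ∀ a, sp (!a) = -sp a := fun a => by cases a <;> simp [sp]
  have h0 : ∑ x, wt β g x * sp (x ⟨0, hn⟩) = 0 := by
    have := Equiv.sum_comp hi.toPerm fun x => wt β g x * sp (x ⟨0, hn⟩)
    simp only [Function.Involutive.coe_toPerm, wt, e, mul_neg, neg_mul, neg_neg, sum_neg_distrib] at this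
    simp only [wt]
    linarith
  have h1 := (gap_iff β g c).1 h _ h0
  have h2 := dir_lin hw (Pi.single ⟨0, hn⟩ 1) 0
  simp only [sp_sq, mul_one] at h1
  simp [Pi.single_apply] at h2
  exact le_of_mul_le_mul_right (by linarith) (sum_pos' hw)

theorem result (β : ℝ) (h0 : 0 ≤ β) (h1 : β < 1 / 2) : ∃ c C : ℝ, 0 < c ∧
    Tendsto (fun n : ℕ => disorder n {g | ¬ (GapGe β g c ∧ (∀ c', GapGe β g c' → c' ≤ 1) ∧
      ∀ ε t : ℝ, 0 < ε → ε ≤ 1 → C * Real.log (n / ε) ≤ t → ∀ x, tv β g t x ≤ ε)}) atTop (𝓝 0) := by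
  obtain ⟨l, η, κ, l0, l1, hη, κ0, hκ, H⟩ := good h0 h1
  set C := Real.exp (2 * (4 * (4 * l / κ) + 1)) with hC
  have C1 : 1 ≤ C := Real.one_le_exp (by positivity)
  refine ⟨κ, 2 * C, κ0, tendsto_of_tendsto_of_tendsto_of_le_of_le' tendsto_const_nhds H
    (.of_forall fun _ => zero_le) ?_⟩
  filter_upwards [eventually_ge_atTop 8] with n hn
  refine MeasureTheory.measure_mono fun g hg hG => hg ⟨?_, gap_le (by omega) β g, fun ε t ε0 ε1 ht x => ?_⟩
  · rw [gap_iff, wt_eq]; exact poiW hG hη κ0 hκ 0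
  have n8 : (8 : ℝ) ≤ n := by exact_mod_cast hn
  have t0 : 0 ≤ t := le_trans (mul_nonneg (by linarith) (Real.log_nonneg
    ((one_le_div ε0).2 (by linarith)))) ht
  have := mixStmt n (wt β g) (gen β g) C (2 * n) t (fun _ => Real.exp_pos _) C1 (gen_eq β g)
    (by rw [wt_eq]; exact tens hG hη κ0 hκ l0 0) (by rw [wt_eq]; exact W_ratio hG l1) t0 x
  have h2 : Real.exp (-(t / (2 * C))) ≤ ε / n := by
    rw [← Real.le_log_iff_exp_le (by positivity), ← inv_div (n : ℝ) ε, Real.log_inv, neg_le_neg_iff,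
      le_div_iff₀ (by positivity)]
    linarith
  have h3 : 2 * √(2 * n : ℝ) ≤ n := by
    refine (abs_le_of_sq_le_sq' ?_ (by linarith)).2
    rw [mul_pow, Real.sq_sqrt (by positivity)]
    nlinarith
  have h4 := mul_le_mul h3 h2 (Real.exp_pos _).le (by linarith)
  rw [mul_div_cancel₀ _ (by linarith)] at h4
  simp only [tv, gibbs]
  linarith

end Vale.Agent.Results.P150.Half
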