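import Vale.Agent.P150.Fld
import Vale.Agent.P150.DefsH

namespace Vale.Agent.Results.P150.HalfField

open Vale.Agent.P150 Filter Topology Finset

variable {n : ℕ} (β : ℝ) (g : Pair n → ℝ) (h : Fin n → ℝ)

theorem wt_eq : wtH β g h = W (fun i j => β / √n * coup g i j) h := by
  ext x
  simp only [wtH, W, mul_assoc (β / √n), ← mul_sum, coup_sum g fun i => sp (x i)]
  congr 1
  ring

theorem gen_eq (f : Cfg n → ℝ) :
    (genH β g h).mulVec f = fun x => ∑ i, (Q (wtH β g h) i f x - f x) := by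
  ext x
  rw [genH, Matrix.sum_mulVec, Finset.sum_apply]
  refine sum_congr rfl fun i _ => ?_
  rw [Matrix.sub_mulVec, Matrix.one_mulVec, Pi.sub_apply, wt_eq,
    ← kernel (fun i j => by rw [coup_symm]) (fun i => by rw [coup_diag, mul_zero]) h i f x
      (H := fieldH β g h x i) (by simp [fieldH, mul_sum, mul_assoc])]
  rfl

theorem gap_iff (c : ℝ) : GapGeH β g h c ↔ Poi (wtH β g h) c := by
  have hw : ∀ x, 0 < wtH β g h x := fun x => Real.exp_pos _
  have hZ := sum_pos' hw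
  refine forall_congr' fun f => ?_
  simp only [gibbsH, div_mul_eq_mul_div, ← sum_div, gen_eq, ← neg_div, dir_eq hw, ← mul_div_assoc,
    div_le_div_iff_of_pos_right hZ, div_eq_zero_iff, hZ.ne', or_false]

theorem result (β : ℝ) (h0 : 0 ≤ β) (h1 : β < 1 / 2) : ∃ c C : ℝ, 0 < c ∧
    Tendsto (fun n : ℕ => disorder n {g | ¬ ∀ h : Fin n → ℝ,
      GapGeH β g h c ∧ (∀ c', GapGeH β g h c' → c' ≤ 1) ∧ ∀ ε t : ℝ, 0 < ε → ε ≤ 1 →
        C * Real.log (n / ε) ≤ t → ∀ x, tvH β g h t x ≤ ε}) atTop (𝓝 0) := by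
  obtain ⟨l, η, κ, l0, l1, hη, κ0, hκ, H⟩ := good h0 h1
  set C := Real.exp (2 * (4 * (4 * l / κ) + 1)) with hC
  have C1 : 1 ≤ C := Real.one_le_exp (by positivity)
  refine ⟨κ, 16 * C, κ0, tendsto_of_tendsto_of_tendsto_of_le_of_le' tendsto_const_nhds H
    (.of_forall fun _ => zero_le) ?_⟩
  filter_upwards [tendsto_natCast_atTop_atTop.eventually_ge_atTop (18 * C)] with n hn
  have n1 : (1 : ℝ) ≤ n := by linarith
  refine MeasureTheory.measure_mono fun g hg hG => hg fun h => ⟨?_, fun c hc => gap_one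
    (by exact_mod_cast n1) (fun _ => Real.exp_pos _) ((gap_iff β g h c).1 hc), fun ε t ε0 ε1 ht x => ?_⟩
  · rw [gap_iff, wt_eq]; exact poiW hG hη κ0 hκ h
  have t0 : 0 ≤ t := le_trans (mul_nonneg (by linarith) (Real.log_nonneg
    ((one_le_div ε0).2 (by linarith)))) ht
  have := mixH (t := t / 2) hG l1 (by linarith) h (wt_eq β g h) C1 (gen_eq β g h)
    (by rw [wt_eq]; exact tens hG hη κ0 hκ l0 h) (by linarith) x
  have h2 : Real.exp (-(t / 2 / (4 * C))) ≤ (ε / n) ^ 2 := by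
    rw [← Real.le_log_iff_exp_le (by positivity), Real.log_pow, ← inv_div (n : ℝ) ε, Real.log_inv,
      mul_neg, neg_le_neg_iff, le_div_iff₀ (by positivity)]
    push_cast
    linarith
  have h4 := mul_le_mul (mul_le_mul_of_nonneg_right hn (by linarith : (0 : ℝ) ≤ n)) h2
    (Real.exp_pos _).le (by positivity)
  rw [show n * n * (ε / n) ^ 2 = ε * ε by field_simp] at h4
  rw [mul_div_cancel₀ _ two_ne_zero] at this
  simp only [tvH, gibbsH]
  nlinarith

end Vale.Agent.Results.P150.HalfField
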