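import Vale.Agent.P150.Low2
import Vale.Agent.Results.P150.Half

namespace Vale.Agent.Results.P150.Order

open Vale.Agent.P150 Filter Topology

/-- the mixing time -/
noncomputable def tmix {n : ℕ} (β : ℝ) (g : Pair n → ℝ) : ℝ :=
  sInf {t : ℝ | 0 ≤ t ∧ ∀ x, tv β g t x ≤ 1 / 4}

theorem result :
    (∀ β : ℝ, 0 ≤ β → β < 1 / 2 → ∃ c C : ℝ, 0 < c ∧
      Tendsto (fun n : ℕ => disorder n {g | ¬ (GapGe β g c ∧ (∀ c', GapGe β g c' → c' ≤ 1) ∧
        c * Real.log n ≤ tmix β g ∧ tmix β g ≤ C * Real.log n ∧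
        ∀ ε t : ℝ, 0 < ε → ε ≤ 1 → C * Real.log (n / ε) ≤ t → ∀ x, tv β g t x ≤ ε)}) atTop (𝓝 0)) ∧
    ∀ β : ℝ, 0 ≤ β → ∃ c : ℝ, 0 < c ∧ Tendsto (fun n : ℕ => disorder n
      {g | ¬ ∀ t : ℝ, 0 ≤ t → t ≤ c * Real.log n → ∃ x, 1 / 4 < tv β g t x}) atTop (𝓝 0) := by
  refine ⟨fun β h0 h1 => ?_, fun β h0 => slow h0⟩
  obtain ⟨c, C, c0, H⟩ := Half.result β h0 h1
  obtain ⟨c', c1, H'⟩ := slow h0
  refine ⟨min c c', 2 * |C|, lt_min c0 c1, tendsto_of_tendsto_of_tendsto_of_le_of_le' tendsto_const_nhds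
    (by have := H.add H'; rwa [add_zero] at this) (.of_forall fun _ => zero_le) ?_⟩
  filter_upwards [eventually_ge_atTop 4] with n hn
  refine le_trans (MeasureTheory.measure_mono fun g hg => ?_) (MeasureTheory.measure_union_le _ _)
  by_contra hc
  simp only [Set.mem_union, Set.mem_ofPred_eq, not_or, not_not] at hc
  obtain ⟨⟨a1, a2, a3⟩, a4⟩ := hc
  have n4 : (4 : ℝ) ≤ n := by exact_mod_cast hn
  have l0 : 0 ≤ Real.log n := Real.log_nonneg (by linarith)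
  have C0 := abs_nonneg C
  have C1 := le_abs_self C
  have m : 2 * |C| * Real.log n ∈ {t : ℝ | 0 ≤ t ∧ ∀ x, tv β g t x ≤ 1 / 4} := by
    refine ⟨by positivity, a3 _ _ (by norm_num) (by norm_num) ?_⟩
    have l1 : Real.log (n / (1 / 4)) ≤ 2 * Real.log n := by
      rw [two_mul, ← Real.log_mul (by linarith) (by linarith)]
      exact Real.log_le_log (by positivity) (by nlinarith)
    have l2 : 0 ≤ Real.log (n / (1 / 4)) := Real.log_nonneg (by linarith)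
    nlinarith [mul_le_mul_of_nonneg_right C1 l2, mul_le_mul_of_nonneg_left l1 C0]
  refine hg ⟨fun f hf => le_trans (mul_le_mul_of_nonneg_right (min_le_left _ _)
    (Finset.sum_nonneg fun x _ => mul_nonneg (div_nonneg (Real.exp_pos _).le
      (Finset.sum_nonneg fun _ _ => (Real.exp_pos _).le)) (sq_nonneg _))) (a1 f hf), a2,
    le_csInf ⟨_, m⟩ fun t ht => ?_, csInf_le ⟨0, fun t ht => ht.1⟩ m, fun ε t e0 e1 ht => a3 ε t e0 e1 ?_⟩
  · by_contra hc
    obtain ⟨x, hx⟩ := a4 t ht.1 ((not_le.1 hc).le.trans (mul_le_mul_of_nonneg_right (min_le_right _ _) l0))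
    exact absurd (ht.2 x) (not_le.2 hx)
  · have l2 : 0 ≤ Real.log (n / ε) := Real.log_nonneg ((one_le_div e0).2 (by linarith))
    nlinarith [mul_le_mul_of_nonneg_right C1 l2, mul_nonneg C0 l2]

end Vale.Agent.Results.P150.Order
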